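import Vale.Agent.P218.CY.Top
import Vale.Agent.P218.CY.C
import Vale.Agent.P218.CY.D
import Vale.Agent.P218.CY.E
import Vale.Agent.P218.CY.I
import Vale.Agent.P218.CY.M
import Vale.Agent.P218.CY.Q
import Vale.Agent.P218.CY.S
import Vale.Agent.P218.CY.H237.B
import Vale.Agent.P218.CY.H266.P
import Vale.Agent.P218.CY.H571.L
import Vale.Agent.P218.CY.H624.T
import Vale.Agent.P218.CY.H624.G
import Vale.Agent.P218.CY.H624.W

/-! The round cylinder satisfies the hypotheses of the second-order theorem: no hypothesis. -/

namespace Vale.Agent.P218.CY.H787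

open Vale.Agent.P218.CY

/-- the integration by parts -/
theorem hP : RowP := H266.rowP rowI rowM

/-- the stability operator -/
theorem hL : RowL := H571.rowL H624.rowG

/-- the Jacobi fields -/
theorem hS : RowS := rowS (rowD rowE) (rowQ H624.rowW H624.rowG rowM) hL hP rowM

/-- the round cylinder satisfies all the hypotheses -/
theorem top : RowTOP :=
  rowTOP H624.rowG H624.rowT hS (rowC H624.rowG hP rowM)
    (H237.rowB H624.rowW H624.rowG hL hP rowM)

end Vale.Agent.P218.CY.H787
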